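import Vale.Agent.P331.H688.QJRL

/-!
# The quenched joint reverse Lipschitz inequality, three labels, arbitrary exponents
-/

set_option autoImplicit false
set_option linter.all false

namespace Vale.Agent.P331.H688

open Finset Vale.Agent.P331.H489

open Lab

/-- The one-coordinate inequality. -/
def Star (s k : ℕ) (lam θ δ ε : ℝ) : Prop := ∀ BO BR BX CO CR CX : ℝ, 0 < BR → 0 < BX → BX ≤ BO →
  0 < CR → 0 < CX → CX ≤ CO →
    ((1 - θ - δ) * BR + (θ - ε) * BX + (δ + ε) * BO) ^ (s + k) /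
        ((1 - θ - δ) * CR + θ * CX + δ * CO) ^ s + ε * (BX ^ (s + k) / (min CO (lam * CX)) ^ s) ≤
      θ * (BX ^ (s + k) / CX ^ s) + (1 - θ - δ) * (BR ^ (s + k) / CR ^ s) +
        (δ + ε) * (BO ^ (s + k) / CO ^ s)

/-- The scalar inequality with exponents `s + k` and `s`. -/
def QJ (s k : ℕ) (t η lam : ℝ) : Prop := ∀ a b : ℝ, 0 < a → a ≤ 1 → 0 ≤ b → b ≤ 1 →
  (1 - t * (1 - η) * (1 - b)) ^ (s + k) / (1 - t * (1 - a)) ^ s +
      η * t * b ^ (s + k) * max 1 (1 / (lam * a) ^ s) ≤
    1 - t + η * t + t * b ^ (s + k) / a ^ s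

/-- The plain kernel. -/
theorem QJ.star {s k : ℕ} {t η lam : ℝ} (h : QJ s k t η lam) (hlam : 0 < lam) (ht : 0 ≤ t)
    (ht1 : t < 1) : Star s k lam t (1 - t) (η * t) := by
  intro BO BR BX CO CR CX hBR hBX hB hCR hCX hC
  have hBO : 0 < BO := lt_of_lt_of_le hBX hB
  have hCO : 0 < CO := lt_of_lt_of_le hCX hC
  have h1 := h (CX / CO) (BX / BO) (by positivity) ((div_le_one hCO).2 hC) (by positivity)
    ((div_le_one hBO).2 hB)
  have hm : 0 < t * CX + (1 - t) * CO := by
    have : 0 < 1 - t := by linarith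
    positivity
  have h0 : (1 - t - (1 - t)) = 0 := by ring
  rw [h0]
  have e1 : (0 * BR + (t - η * t) * BX + (1 - t + η * t) * BO) ^ (s + k) /
      (0 * CR + t * CX + (1 - t) * CO) ^ s =
      BO ^ (s + k) / CO ^ s * ((1 - t * (1 - η) * (1 - BX / BO)) ^ (s + k) /
        (1 - t * (1 - CX / CO)) ^ s) := by
    have e2 : 0 * BR + (t - η * t) * BX + (1 - t + η * t) * BO =
        BO * (1 - t * (1 - η) * (1 - BX / BO)) := by
      field_simp
      ring
    have e3 : 0 * CR + t * CX + (1 - t) * CO = CO * (1 - t * (1 - CX / CO)) := by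
      field_simp
      ring
    rw [e2, e3, mul_pow, mul_pow, mul_div_mul_comm]
  have e4 : BX ^ (s + k) / (min CO (lam * CX)) ^ s =
      BO ^ (s + k) / CO ^ s * ((BX / BO) ^ (s + k) * max 1 (1 / (lam * (CX / CO)) ^ s)) := by
    rcases le_total CO (lam * CX) with hle | hle
    · have h2 : 1 ≤ lam * (CX / CO) := by
        rw [← mul_div_assoc, le_div_iff₀ hCO, one_mul]
        exact hle
      rw [min_eq_left hle, max_eq_left, div_pow]
      · field_simp
      · rw [div_le_one (by positivity)]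
        exact one_le_pow₀ h2
    · have h2 : lam * (CX / CO) ≤ 1 := by
        rw [← mul_div_assoc, div_le_one hCO]
        exact hle
      rw [min_eq_right hle, max_eq_right, div_pow, mul_pow, mul_pow, div_pow]
      · field_simp
      · rw [le_div_iff₀ (by positivity), one_mul]
        exact pow_le_one₀ (by positivity) h2
  have e5 : t * (BX ^ (s + k) / CX ^ s) =
      BO ^ (s + k) / CO ^ s * (t * (BX / BO) ^ (s + k) / (CX / CO) ^ s) := by
    rw [div_pow, div_pow]
    field_simp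
  rw [e1, e4, e5]
  have h2 : 0 < BO ^ (s + k) / CO ^ s := by positivity
  have h3 := mul_le_mul_of_nonneg_left h1 h2.le
  calc _ = BO ^ (s + k) / CO ^ s * ((1 - t * (1 - η) * (1 - BX / BO)) ^ (s + k) /
        (1 - t * (1 - CX / CO)) ^ s +
        η * t * (BX / BO) ^ (s + k) * max 1 (1 / (lam * (CX / CO)) ^ s)) := by ring
    _ ≤ _ := h3
    _ = _ := by ring

section fin

/-- **The quenched joint reverse Lipschitz inequality**, on `Fin n`, for positive functions. -/
theorem jrl_fin' {s k : ℕ} {lam : ℝ} (hlam : 1 ≤ lam) {n : ℕ} {r θ δ ε : Fin n → ℝ}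
    (hstar : ∀ e, Star s k lam (θ e) (δ e) (ε e)) (hr : ∀ e, 0 ≤ r e)
    (hr1 : ∀ e, r e * (1 + ε e) ≤ 1) (hδ : ∀ e, 0 ≤ δ e) (hs : ∀ e, θ e + δ e ≤ 1)
    (hε : ∀ e, 0 ≤ ε e) (hε' : ∀ e, ε e ≤ θ e) {φ : (Fin n → Lab) → ℝ}
    (hφ : ∀ ω, 0 < φ ω) (hd : ∀ ω e, φ (Function.update ω e X) ≤ φ (Function.update ω e O)) :
    EX (fun e => lw (r e) (ε e)) (fun ω =>
      Bn (fun e => θ e - ε e) (fun e => δ e + ε e) φ ω (fun _ => true) ^ (s + k) /
        Xi lam θ δ φ ω ^ s) ≤
      EX (fun e => nw (r e) (θ e) (δ e)) (fun ω => φ ω ^ k) := by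
  induction n with
  | zero =>
    refine le_of_eq ?_
    unfold EX
    refine sum_congr rfl fun ω _ => ?_
    simp only [univ_eq_empty, prod_empty, one_mul]
    have h1 : Bn (fun e => θ e - ε e) (fun e => δ e + ε e) φ ω (fun _ => true) = φ ω := by
      rw [Bn, EX]
      simp only [univ_eq_empty, prod_empty, one_mul]
      rw [Fintype.sum_unique]
      exact congrArg φ (Subsingleton.elim _ _)
    have h2 : Xi lam θ δ φ ω = φ ω := rfl
    rw [h1, h2]
    have := hφ ω
    rw [pow_add, mul_comm (φ ω ^ s), mul_div_assoc, div_self (by positivity), mul_one]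
  | succ n ih =>
    have hθ : ∀ e, 0 ≤ θ e := fun e => by have := hε e; have := hε' e; linarith
    have hg : Good θ δ := ⟨hθ, hδ, hs⟩
    have hg' : Good (fun e => θ e - ε e) (fun e => δ e + ε e) :=
      ⟨fun e => by have := hε e; have := hε' e; linarith,
        fun e => add_nonneg (hg.δ0 e) (hε e), fun e => by have := hs e; linarith⟩
    have ihl : ∀ l : Lab, EX (fun e : Fin n => lw (r e.succ) (ε e.succ)) (fun ω =>
        Bn (fun e : Fin n => θ e.succ - ε e.succ) (fun e : Fin n => δ e.succ + ε e.succ)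
          (fun τ => φ (Fin.cons l τ)) ω (fun _ => true) ^ (s + k) /
        Xi lam (fun i : Fin n => θ i.succ) (fun i : Fin n => δ i.succ)
          (fun τ => φ (Fin.cons l τ)) ω ^ s) ≤
        EX (fun e : Fin n => nw (r e.succ) (θ e.succ) (δ e.succ))
          (fun ω => φ (Fin.cons l ω) ^ k) := by
      intro l
      refine ih (fun e => hstar _) (fun e => hr _) (fun e => hr1 _) (fun e => hδ _) (fun e => hs _) (fun e => hε _)
        (fun e => hε' _) (fun ω => hφ _) fun ω e => ?_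
      have h1 := hd (Fin.cons l ω) e.succ
      rw [← Fin.cons_update, ← Fin.cons_update] at h1
      exact h1
    rw [EX_cons, EX_cons]
    -- the three labels
    have hpt : ∀ ω : Fin n → Lab, ∑ l, lw (r 0) (ε 0) l *
        (Bn (fun e => θ e - ε e) (fun e => δ e + ε e) φ (Fin.cons l ω) (fun _ => true) ^ (s + k) /
          Xi lam θ δ φ (Fin.cons l ω) ^ s) ≤
        ∑ l, nw (r 0) (θ 0) (δ 0) l *
          (Bn (fun e : Fin n => θ e.succ - ε e.succ) (fun e : Fin n => δ e.succ + ε e.succ)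
            (fun τ => φ (Fin.cons l τ)) ω (fun _ => true) ^ (s + k) /
          Xi lam (fun i : Fin n => θ i.succ) (fun i : Fin n => δ i.succ)
            (fun τ => φ (Fin.cons l τ)) ω ^ s) := by
      intro ω
      have hxi := fun l : Lab => Xi_pos (lam := lam) (by linarith) hg.tail
        (φ := fun τ => φ (Fin.cons l τ)) (fun _ => hφ _) ω
      have hbb := fun l : Lab => Bn_pos hg'.tail (φ := fun τ => φ (Fin.cons l τ)) (fun _ => hφ _)
        ω (fun _ => true)
      have hox : ∀ τ : Fin n → Lab, φ (Fin.cons X τ) ≤ φ (Fin.cons O τ) := by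
        intro τ
        have h1 := hd (Fin.cons X τ) 0
        rw [Fin.update_cons_zero, Fin.update_cons_zero] at h1
        exact h1
      have hxi2 := Xi_mono (lam := lam) (by linarith) hg.tail (φ := fun τ => φ (Fin.cons X τ))
        (ψ := fun τ => φ (Fin.cons O τ)) hox ω
      have hbb2 := Bn_mono hg'.tail (φ := fun τ => φ (Fin.cons X τ))
        (ψ := fun τ => φ (Fin.cons O τ)) hox ω (fun _ => true)
      have hst := hstar 0 _ _ _ _ _ _ (hbb R) (hbb X) hbb2 (hxi R) (hxi X) hxi2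
      rw [sum_lab, sum_lab, Bn_succ, Bn_succ, Bn_succ, sum_lab, sum_lab, sum_lab, Xi, Xi, Xi]
      simp only [Fin.cons_zero, Fin.cons_succ, lw, nw, kw, Pi.single_apply, reduceCtorEq, if_false,
        if_true, zero_mul, add_zero, zero_add, one_mul]
      have hr0 := hr 0
      have h5 := mul_le_mul_of_nonneg_left hst hr0
      generalize Bn (fun e : Fin n => θ e.succ - ε e.succ) (fun e : Fin n => δ e.succ + ε e.succ)
        (fun τ => φ (Fin.cons O τ)) ω (fun _ => true) = bO at *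
      generalize Bn (fun e : Fin n => θ e.succ - ε e.succ) (fun e : Fin n => δ e.succ + ε e.succ)
        (fun τ => φ (Fin.cons R τ)) ω (fun _ => true) = bR at *
      generalize Bn (fun e : Fin n => θ e.succ - ε e.succ) (fun e : Fin n => δ e.succ + ε e.succ)
        (fun τ => φ (Fin.cons X τ)) ω (fun _ => true) = bX at *
      have e1 : (δ 0 + ε 0) * bO + (1 - (θ 0 - ε 0) - (δ 0 + ε 0)) * bR + (θ 0 - ε 0) * bX =
          (1 - θ 0 - δ 0) * bR + (θ 0 - ε 0) * bX + (δ 0 + ε 0) * bO := by ring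
      have e2 : (fun i => ω i) = ω := rfl
      rw [e1, e2]
      generalize Xi lam (fun i : Fin n => θ i.succ) (fun i : Fin n => δ i.succ)
        (fun τ => φ (Fin.cons O τ)) ω = cO at *
      generalize Xi lam (fun i : Fin n => θ i.succ) (fun i : Fin n => δ i.succ)
        (fun τ => φ (Fin.cons R τ)) ω = cR at *
      generalize Xi lam (fun i : Fin n => θ i.succ) (fun i : Fin n => δ i.succ)
        (fun τ => φ (Fin.cons X τ)) ω = cX at *
      generalize ((1 - θ 0 - δ 0) * bR + (θ 0 - ε 0) * bX + (δ 0 + ε 0) * bO) ^ (s + k) /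
        ((1 - θ 0 - δ 0) * cR + θ 0 * cX + δ 0 * cO) ^ s = Q at *
      generalize bX ^ (s + k) / (min cO (lam * cX)) ^ s = M at *
      generalize bX ^ (s + k) / cX ^ s = AX at *
      generalize bR ^ (s + k) / cR ^ s = AR at *
      generalize bO ^ (s + k) / cO ^ s = AO at *
      linarith
    have hw1 : ∀ (e : Fin n) (l : Lab), 0 ≤ lw (r e.succ) (ε e.succ) l :=
      fun e l => lw_nonneg (hr _) (hε _) (hr1 _) l
    calc _ = EX (fun i : Fin n => lw (r i.succ) (ε i.succ)) (fun ω => ∑ l, lw (r 0) (ε 0) l *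
          (Bn (fun e => θ e - ε e) (fun e => δ e + ε e) φ (Fin.cons l ω)
            (fun _ => true) ^ (s + k) / Xi lam θ δ φ (Fin.cons l ω) ^ s)) := by
          rw [EX_sum]
          refine sum_congr rfl fun l _ => ?_
          rw [EX_mul]
      _ ≤ EX (fun i : Fin n => lw (r i.succ) (ε i.succ)) (fun ω => ∑ l, nw (r 0) (θ 0) (δ 0) l *
          (Bn (fun e : Fin n => θ e.succ - ε e.succ) (fun e : Fin n => δ e.succ + ε e.succ)
            (fun τ => φ (Fin.cons l τ)) ω (fun _ => true) ^ (s + k) /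
          Xi lam (fun i : Fin n => θ i.succ) (fun i : Fin n => δ i.succ)
            (fun τ => φ (Fin.cons l τ)) ω ^ s)) := EX_mono hw1 hpt
      _ = ∑ l, nw (r 0) (θ 0) (δ 0) l * EX (fun i : Fin n => lw (r i.succ) (ε i.succ)) (fun ω =>
          Bn (fun e : Fin n => θ e.succ - ε e.succ) (fun e : Fin n => δ e.succ + ε e.succ)
            (fun τ => φ (Fin.cons l τ)) ω (fun _ => true) ^ (s + k) /
          Xi lam (fun i : Fin n => θ i.succ) (fun i : Fin n => δ i.succ)
            (fun τ => φ (Fin.cons l τ)) ω ^ s) := by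
          rw [EX_sum]
          refine sum_congr rfl fun l _ => ?_
          rw [EX_mul]
      _ ≤ _ := sum_le_sum fun l _ => mul_le_mul_of_nonneg_left (ihl l)
          (nw_nonneg (hr 0) (hε 0) (hr1 0) (hθ 0) (hg.δ0 0) (hs 0) l)

open Classical in
/-- The Markov form, on `Fin n`. -/
theorem markov_fin' {s k : ℕ} {lam : ℝ} (hlam : 1 ≤ lam) {n : ℕ} {r θ δ ε : Fin n → ℝ}
    (hstar : ∀ e, Star s k lam (θ e) (δ e) (ε e)) (hr : ∀ e, 0 ≤ r e)
    (hr1 : ∀ e, r e * (1 + ε e) ≤ 1) (hδ : ∀ e, 0 ≤ δ e) (hs : ∀ e, θ e + δ e ≤ 1)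
    (hε : ∀ e, 0 ≤ ε e) (hε' : ∀ e, ε e ≤ θ e) {φ : (Fin n → Lab) → ℝ}
    (hφ : ∀ ω, 0 ≤ φ ω) (hd : ∀ ω e, φ (Function.update ω e X) ≤ φ (Function.update ω e O))
    {α β : ℝ} (hα : 0 ≤ α) (hβ : 0 ≤ β) :
    β ^ (s + k) * EX (fun e => lw (r e) (ε e)) (fun ω =>
      if (∃ y : Fin n → Bool, (∏ e, if y e = true then lam else 1) * Bn θ δ φ ω y ≤ α) ∧
        β ≤ Bn (fun e => θ e - ε e) (fun e => δ e + ε e) φ ω (fun _ => true) then 1 else 0) ≤
      α ^ s * EX (fun e => nw (r e) (θ e) (δ e)) (fun ω => φ ω ^ k) := by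
  have hθ : ∀ e, 0 ≤ θ e := fun e => by have := hε e; have := hε' e; linarith
  have hg : Good θ δ := ⟨hθ, hδ, hs⟩
  have hg' : Good (fun e => θ e - ε e) (fun e => δ e + ε e) :=
    ⟨fun e => by have := hε e; have := hε' e; linarith,
      fun e => add_nonneg (hg.δ0 e) (hε e), fun e => by have := hs e; linarith⟩
  have hw : ∀ (e : Fin n) (l : Lab), 0 ≤ lw (r e) (ε e) l :=
    fun e l => lw_nonneg (hr _) (hε _) (hr1 _) l
  set P := EX (fun e => lw (r e) (ε e)) (fun ω =>
      if (∃ y : Fin n → Bool, (∏ e, if y e = true then lam else 1) * Bn θ δ φ ω y ≤ α) ∧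
        β ≤ Bn (fun e => θ e - ε e) (fun e => δ e + ε e) φ ω (fun _ => true) then (1 : ℝ) else 0)
    with hP
  set f : ℝ → ℝ := fun c => (α + lam ^ n * c) ^ s *
    EX (fun e => nw (r e) (θ e) (δ e)) (fun ω => (φ ω + c) ^ k) with hf
  have hlam0 : 0 < lam := by linarith
  have key : ∀ c : ℝ, 0 < c → β ^ (s + k) * P ≤ f c := by
    intro c hc
    have hφc : ∀ ω : Fin n → Lab, 0 < φ ω + c := fun ω => add_pos_of_nonneg_of_pos (hφ ω) hc
    have h1 := jrl_fin' hlam hstar hr hr1 hδ hs hε hε' (φ := fun ω => φ ω + c) hφc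
      (fun ω e => add_le_add_left (hd ω e) c)
    have hA : 0 < α + lam ^ n * c := by positivity
    have h2 : β ^ (s + k) / (α + lam ^ n * c) ^ s * P ≤ EX (fun e => lw (r e) (ε e)) (fun ω =>
        Bn (fun e => θ e - ε e) (fun e => δ e + ε e) (fun ω => φ ω + c) ω
          (fun _ => true) ^ (s + k) / Xi lam θ δ (fun ω => φ ω + c) ω ^ s) := by
      rw [hP, ← EX_mul]
      refine EX_mono hw fun ω => ?_
      have hxi := Xi_pos hlam0 hg hφc ω
      have hB0 := Bn_nonneg hg' (φ := fun ω => φ ω + c) (fun ω => (hφc ω).le) ω (fun _ => true)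
      split_ifs with h
      · obtain ⟨⟨y, hy⟩, hb⟩ := h
        rw [mul_one]
        have h3 := Xi_le hlam hg (φ := fun ω => φ ω + c) (fun ω => (hφc ω).le) ω y
        rw [Bn_add, mul_add] at h3
        have h4 : (∏ e : Fin n, if y e = true then lam else 1) ≤ lam ^ n := by
          calc (∏ e : Fin n, if y e = true then lam else 1) ≤ ∏ _e : Fin n, lam := by
                refine prod_le_prod (fun e _ => ?_) fun e _ => ?_
                · split_ifs <;> linarith
                · split_ifs <;> linarith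
            _ = lam ^ n := by simp
        have h5 : Xi lam θ δ (fun ω => φ ω + c) ω ≤ α + lam ^ n * c := by
          have := mul_le_mul_of_nonneg_right h4 hc.le
          linarith
        refine div_le_div₀ (pow_nonneg hB0 _) (pow_le_pow_left₀ hβ ?_ _)
          (by positivity) (pow_le_pow_left₀ hxi.le h5 s)
        rw [Bn_add]
        linarith
      · rw [mul_zero]
        exact div_nonneg (pow_nonneg hB0 _) (pow_nonneg hxi.le _)
    have h6 := h2.trans h1
    rw [div_mul_eq_mul_div, div_le_iff₀ (by positivity)] at h6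
    rw [hf]
    linarith
  have hcont : Continuous f := by
    rw [hf]
    unfold EX
    fun_prop
  have hlim : Filter.Tendsto f (nhdsWithin 0 (Set.Ioi 0)) (nhds (f 0)) :=
    (hcont.tendsto 0).mono_left nhdsWithin_le_nhds
  have h7 : β ^ (s + k) * P ≤ f 0 :=
    ge_of_tendsto hlim (Filter.eventually_of_mem self_mem_nhdsWithin fun c hc => key c hc)
  rw [hf] at h7
  simpa using h7

end fin

section gen

variable {E : Type*} [Fintype E] [DecidableEq E]

open Classical in
/-- **The quenched joint reverse Lipschitz inequality**, event form, any exponents. -/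
theorem qjrl_gen {s k : ℕ} {lam : ℝ} (hlam : 1 ≤ lam) {r θ δ ε : E → ℝ}
    (hstar : ∀ e, Star s k lam (θ e) (δ e) (ε e)) (hr : ∀ e, 0 ≤ r e)
    (hr1 : ∀ e, r e * (1 + ε e) ≤ 1) (hδ : ∀ e, 0 ≤ δ e) (hs : ∀ e, θ e + δ e ≤ 1)
    (hε : ∀ e, 0 ≤ ε e) (hε' : ∀ e, ε e ≤ θ e) {φ : (E → Lab) → ℝ}
    (hφ : ∀ ω, 0 ≤ φ ω) (hd : ∀ ω e, φ (Function.update ω e X) ≤ φ (Function.update ω e O))
    {α β : ℝ} (hα : 0 ≤ α) (hβ : 0 ≤ β) :
    β ^ (s + k) * EX (fun e => lw (r e) (ε e)) (fun ω =>
      if (∃ Y : Finset E, lam ^ Y.card * EN θ δ φ ω Y ≤ α) ∧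
        β ≤ EN (fun e => θ e - ε e) (fun e => δ e + ε e) φ ω univ then 1 else 0) ≤
      α ^ s * EX (fun e => nw (r e) (θ e) (δ e)) (fun ω => φ ω ^ k) := by
  obtain ⟨n, ⟨σ⟩⟩ : ∃ n, Nonempty (E ≃ Fin n) := ⟨_, ⟨Fintype.equivFin E⟩⟩
  have h := markov_fin' hlam (r := fun i => r (σ.symm i)) (θ := fun i => θ (σ.symm i))
    (δ := fun i => δ (σ.symm i)) (ε := fun i => ε (σ.symm i)) (fun i => hstar _) (fun i => hr _)
    (fun i => hr1 _) (fun i => hδ _) (fun i => hs _) (fun i => hε _) (fun i => hε' _)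
    (φ := fun τ => φ (τ ∘ σ)) (fun τ => hφ _) (fun τ i => by
      have := hd (τ ∘ σ) (σ.symm i)
      rw [← Function.update_comp_equiv, ← Function.update_comp_equiv] at this
      exact this) hα hβ
  rw [EX_reindex σ (fun e => lw (r e) (ε e)), EX_reindex σ (fun e => nw (r e) (θ e) (δ e))]
  refine le_trans (mul_le_mul_of_nonneg_left (EX_mono (fun i l => lw_nonneg (hr _) (hε _)
    (hr1 _) l) fun ω => ?_) (by positivity)) h
  simp only [EN_reindex]
  split_ifs with h1 h2 h2
  · exact le_refl _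
  · refine absurd ?_ h2
    obtain ⟨⟨Y, hY⟩, hb⟩ := h1
    refine ⟨⟨fun i => decide (σ.symm i ∈ Y), ?_⟩, ?_⟩
    · have e1 : (∏ i : Fin n, if decide (σ.symm i ∈ Y) = true then lam else 1) =
          lam ^ Y.card := by
        simp only [decide_eq_true_eq]
        rw [Equiv.prod_comp σ.symm (fun e => if e ∈ Y then lam else 1), prod_ite_mem, univ_inter,
          prod_const]
      rw [e1]
      exact hY
    · simpa using hb
  · exact zero_le_one
  · exact le_refl _

end gen

end Vale.Agent.P331.H688
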