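import Vale.Agent.P331.H489.Ex

/-!
# The quenched joint reverse Lipschitz inequality, three labels
-/

set_option autoImplicit false
set_option linter.all false

namespace Vale.Agent.P331.H688

open Finset Vale.Agent.P331.H489

/-- The labels: outside, in the sample, in the planted set. -/
inductive Lab
  | O
  | R
  | X
  deriving DecidableEq

open Lab

instance : Fintype Lab := ⟨{O, R, X}, by intro x; cases x <;> decide⟩

theorem sum_lab (f : Lab → ℝ) : ∑ l, f l = f O + f R + f X := by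
  have h : (univ : Finset Lab) = {O, R, X} := rfl
  rw [h, sum_insert (by decide), sum_insert (by decide), sum_singleton]
  ring

/-- The law of the labels. -/
def lw (r ε : ℝ) : Lab → ℝ
  | O => 1 - r - r * ε
  | R => r
  | X => r * ε

/-- The natural law. -/
def nw (r θ δ : ℝ) : Lab → ℝ
  | O => 1 - r * (1 - δ)
  | R => r * (1 - θ - δ)
  | X => r * θ

/-- The noise kernel: the elements of the sample become planted with probability `θ` and are deleted
with probability `δ`; the planted elements are kept (`y = true`) or deleted (`y = false`). -/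
def kw (θ δ : ℝ) : Lab → Bool → Lab → ℝ
  | O, _ => Pi.single O 1
  | R, _ => fun l => match l with
    | O => δ
    | R => 1 - θ - δ
    | X => θ
  | X, true => Pi.single X 1
  | X, false => Pi.single O 1

theorem lw_nonneg {r ε : ℝ} (hr : 0 ≤ r) (hε : 0 ≤ ε) (h : r * (1 + ε) ≤ 1) (l : Lab) :
    0 ≤ lw r ε l := by
  cases l
  · simp only [lw]
    linarith
  · exact hr
  · exact mul_nonneg hr hε

theorem nw_nonneg {r ε θ δ : ℝ} (hr : 0 ≤ r) (hε : 0 ≤ ε) (h : r * (1 + ε) ≤ 1) (hθ : 0 ≤ θ)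
    (hδ : 0 ≤ δ) (hs : θ + δ ≤ 1) (l : Lab) : 0 ≤ nw r θ δ l := by
  cases l
  · simp only [nw]
    have h1 : 0 ≤ r * ε := mul_nonneg hr hε
    have h2 : 0 ≤ r * δ := mul_nonneg hr hδ
    linarith
  · simp only [nw]
    exact mul_nonneg hr (by linarith)
  · exact mul_nonneg hr hθ

theorem kw_nonneg {θ δ : ℝ} (hθ : 0 ≤ θ) (hδ : 0 ≤ δ) (h : θ + δ ≤ 1) (l : Lab) (y : Bool)
    (l' : Lab) : 0 ≤ kw θ δ l y l' := by
  cases l <;> cases y <;> cases l' <;> simp [kw, Pi.single_apply] <;> linarith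

section fin

/-- The averages over the noise. -/
noncomputable def Bn {n : ℕ} (θ δ : Fin n → ℝ) (φ : (Fin n → Lab) → ℝ) (ω : Fin n → Lab)
    (y : Fin n → Bool) : ℝ := EX (fun e => kw (θ e) (δ e) (ω e) (y e)) φ

/-- The recursive minimum. -/
noncomputable def Xi (lam : ℝ) : ∀ {n : ℕ}, (Fin n → ℝ) → (Fin n → ℝ) → ((Fin n → Lab) → ℝ) →
    (Fin n → Lab) → ℝ
  | 0, _, _, φ, ω => φ ω
  | n + 1, θ, δ, φ, ω =>
    match ω 0 with
    | O => Xi lam (fun i => θ i.succ) (fun i => δ i.succ) (fun τ => φ (Fin.cons O τ))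
        (fun i => ω i.succ)
    | R => (1 - θ 0 - δ 0) * Xi lam (fun i => θ i.succ) (fun i => δ i.succ)
          (fun τ => φ (Fin.cons R τ)) (fun i => ω i.succ) +
        θ 0 * Xi lam (fun i => θ i.succ) (fun i => δ i.succ)
          (fun τ => φ (Fin.cons X τ)) (fun i => ω i.succ) +
        δ 0 * Xi lam (fun i => θ i.succ) (fun i => δ i.succ)
          (fun τ => φ (Fin.cons O τ)) (fun i => ω i.succ)
    | X => min (Xi lam (fun i => θ i.succ) (fun i => δ i.succ)
          (fun τ => φ (Fin.cons O τ)) (fun i => ω i.succ))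
        (lam * Xi lam (fun i => θ i.succ) (fun i => δ i.succ)
          (fun τ => φ (Fin.cons X τ)) (fun i => ω i.succ))

theorem Bn_succ {n : ℕ} (θ δ : Fin (n + 1) → ℝ) (φ : (Fin (n + 1) → Lab) → ℝ)
    (ω : Fin (n + 1) → Lab) (y : Fin (n + 1) → Bool) :
    Bn θ δ φ ω y = ∑ l, kw (θ 0) (δ 0) (ω 0) (y 0) l *
      Bn (fun i => θ i.succ) (fun i => δ i.succ) (fun τ => φ (Fin.cons l τ))
        (fun i => ω i.succ) (fun i => y i.succ) := by
  rw [Bn, EX_cons]
  rfl

/-- Nonnegative rates. -/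
structure Good {n : ℕ} (θ δ : Fin n → ℝ) : Prop where
  θ0 : ∀ e, 0 ≤ θ e
  δ0 : ∀ e, 0 ≤ δ e
  s0 : ∀ e, θ e + δ e ≤ 1

theorem Good.tail {n : ℕ} {θ δ : Fin (n + 1) → ℝ} (h : Good θ δ) :
    Good (fun i => θ i.succ) (fun i => δ i.succ) :=
  ⟨fun e => h.θ0 _, fun e => h.δ0 _, fun e => h.s0 _⟩

theorem Xi_pos {lam : ℝ} (hlam : 0 < lam) {n : ℕ} {θ δ : Fin n → ℝ} (hg : Good θ δ)
    {φ : (Fin n → Lab) → ℝ} (hφ : ∀ ω, 0 < φ ω) (ω : Fin n → Lab) : 0 < Xi lam θ δ φ ω := by
  induction n with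
  | zero => exact hφ ω
  | succ n ih =>
    have hO := ih hg.tail (φ := fun τ => φ (Fin.cons O τ)) (fun _ => hφ _) (fun i => ω i.succ)
    have hR := ih hg.tail (φ := fun τ => φ (Fin.cons R τ)) (fun _ => hφ _) (fun i => ω i.succ)
    have hX := ih hg.tail (φ := fun τ => φ (Fin.cons X τ)) (fun _ => hφ _) (fun i => ω i.succ)
    rw [Xi]
    cases h : ω 0 with
    | O => exact hO
    | R =>
      simp only
      have h1 := hg.θ0 0
      have h2 := hg.δ0 0
      have h3 := hg.s0 0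
      rcases eq_or_lt_of_le h1 with h4 | h4
      · rcases eq_or_lt_of_le h2 with h5 | h5
        · rw [← h4, ← h5]
          simpa using hR
        · have : 0 ≤ (1 - θ 0 - δ 0) := by linarith
          positivity
      · have : 0 ≤ (1 - θ 0 - δ 0) := by linarith
        positivity
    | X => exact lt_min hO (mul_pos hlam hX)

theorem Xi_mono {lam : ℝ} (hlam : 0 ≤ lam) {n : ℕ} {θ δ : Fin n → ℝ} (hg : Good θ δ)
    {φ ψ : (Fin n → Lab) → ℝ} (h : ∀ ω, φ ω ≤ ψ ω) (ω : Fin n → Lab) :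
    Xi lam θ δ φ ω ≤ Xi lam θ δ ψ ω := by
  induction n with
  | zero => exact h ω
  | succ n ih =>
    have hO := ih hg.tail (φ := fun τ => φ (Fin.cons O τ)) (ψ := fun τ => ψ (Fin.cons O τ))
      (fun _ => h _) (fun i => ω i.succ)
    have hR := ih hg.tail (φ := fun τ => φ (Fin.cons R τ)) (ψ := fun τ => ψ (Fin.cons R τ))
      (fun _ => h _) (fun i => ω i.succ)
    have hX := ih hg.tail (φ := fun τ => φ (Fin.cons X τ)) (ψ := fun τ => ψ (Fin.cons X τ))
      (fun _ => h _) (fun i => ω i.succ)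
    rw [Xi, Xi]
    cases h : ω 0 with
    | O => exact hO
    | R =>
      simp only
      have h1 := hg.θ0 0
      have h2 := hg.δ0 0
      have h3 := hg.s0 0
      have : 0 ≤ (1 - θ 0 - δ 0) := by linarith
      gcongr
    | X => exact min_le_min hO (mul_le_mul_of_nonneg_left hX hlam)

/-- The recursive minimum is below all the averages. -/
theorem Xi_le {lam : ℝ} (hlam : 1 ≤ lam) {n : ℕ} {θ δ : Fin n → ℝ} (hg : Good θ δ)
    {φ : (Fin n → Lab) → ℝ} (hφ : ∀ ω, 0 ≤ φ ω) (ω : Fin n → Lab) (y : Fin n → Bool) :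
    Xi lam θ δ φ ω ≤ (∏ e, if y e = true then lam else 1) * Bn θ δ φ ω y := by
  induction n with
  | zero =>
    rw [Xi, Bn, EX]
    simp only [univ_eq_empty, prod_empty, one_mul]
    rw [Fintype.sum_unique]
    exact le_of_eq (congrArg φ (Subsingleton.elim _ _))
  | succ n ih =>
    have hO := ih hg.tail (φ := fun τ => φ (Fin.cons O τ)) (fun _ => hφ _) (fun i => ω i.succ)
      (fun i => y i.succ)
    have hR := ih hg.tail (φ := fun τ => φ (Fin.cons R τ)) (fun _ => hφ _) (fun i => ω i.succ)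
      (fun i => y i.succ)
    have hX := ih hg.tail (φ := fun τ => φ (Fin.cons X τ)) (fun _ => hφ _) (fun i => ω i.succ)
      (fun i => y i.succ)
    have hB : ∀ l, 0 ≤ Bn (fun i => θ i.succ) (fun i => δ i.succ)
        (fun τ : Fin n → Lab => φ (Fin.cons l τ)) (fun i => ω i.succ) (fun i => y i.succ) := by
      intro l
      refine EX_nonneg (fun e l' => kw_nonneg (hg.θ0 _) (hg.δ0 _) (hg.s0 _) _ _ _) fun τ => hφ _
    have hP : 0 ≤ ∏ i : Fin n, (if y i.succ = true then lam else 1) :=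
      prod_nonneg fun i _ => by split_ifs <;> linarith
    rw [Bn_succ, Fin.prod_univ_succ, sum_lab, Xi]
    set P := ∏ i : Fin n, (if y i.succ = true then lam else 1)
    have hy : 1 ≤ (if y 0 = true then lam else 1) := by split_ifs <;> linarith
    have key : ∀ a b : ℝ, 0 ≤ b → a ≤ P * b → a ≤ (if y 0 = true then lam else 1) * P * b := by
      intro a b hb hab
      refine hab.trans ?_
      have : 0 ≤ P * b := mul_nonneg hP hb
      nlinarith
    cases h : ω 0 with
    | O =>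
      simp only [kw, Pi.single_apply]
      simp only [reduceCtorEq, if_false, if_true, zero_mul, add_zero, one_mul]
      exact key _ _ (hB O) hO
    | R =>
      simp only [kw]
      have h1 := hg.θ0 0
      have h2 := hg.δ0 0
      have h3 := hg.s0 0
      have h4 : 0 ≤ (1 - θ 0 - δ 0) := by linarith
      have k1 := mul_le_mul_of_nonneg_left (key _ _ (hB O) hO) h2
      have k2 := mul_le_mul_of_nonneg_left (key _ _ (hB R) hR) h4
      have k3 := mul_le_mul_of_nonneg_left (key _ _ (hB X) hX) h1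
      linarith
    | X =>
      cases h0 : y 0 with
      | true =>
        simp only [kw, Pi.single_apply]
        simp only [reduceCtorEq, if_false, if_true, zero_mul, add_zero, zero_add, one_mul]
        refine (min_le_right _ _).trans ?_
        rw [mul_assoc]
        exact mul_le_mul_of_nonneg_left hX (by linarith)
      | false =>
        simp only [kw, Pi.single_apply]
        simp only [reduceCtorEq, if_false, if_true, zero_mul, add_zero, zero_add, one_mul,
          Bool.false_eq_true]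
        exact (min_le_left _ _).trans hO

/-- The scalar inequality. -/
def QI (t η lam : ℝ) : Prop := ∀ a b : ℝ, 0 < a → a ≤ 1 → 0 ≤ b → b ≤ 1 →
  (1 - t * (1 - η) * (1 - b)) ^ 4 / (1 - t * (1 - a)) + η * t * b ^ 4 * max 1 (1 / (lam * a)) ≤
    1 - t + η * t + t * b ^ 4 / a

/-- Joint convexity of `B ^ 4 / C`. -/
def QC : Prop := ∀ s B C B' C' : ℝ, 0 ≤ s → s ≤ 1 → 0 ≤ B → 0 < C → 0 ≤ B' → 0 < C' →
  (s * B + (1 - s) * B') ^ 4 / (s * C + (1 - s) * C') ≤ s * (B ^ 4 / C) + (1 - s) * (B' ^ 4 / C')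

/-- The scalar inequality, homogeneous form. -/
theorem QI.hom {t η lam : ℝ} (h : QI t η lam) (hlam : 0 < lam) {BO BX CO CX : ℝ} (hBO : 0 < BO)
    (hBX : 0 ≤ BX) (hB : BX ≤ BO) (hCO : 0 < CO) (hCX : 0 < CX) (hC : CX ≤ CO)
    (ht : 0 ≤ t) (ht1 : t < 1) :
    (t * (1 - η) * BX + (1 - t * (1 - η)) * BO) ^ 4 / (t * CX + (1 - t) * CO) +
      η * t * (BX ^ 4 / min CO (lam * CX)) ≤
      t * (BX ^ 4 / CX) + (1 - t + η * t) * (BO ^ 4 / CO) := by
  have h1 := h (CX / CO) (BX / BO) (by positivity) ((div_le_one hCO).2 hC) (by positivity)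
    ((div_le_one hBO).2 hB)
  have hm : 0 < t * CX + (1 - t) * CO := by
    have : 0 < 1 - t := by linarith
    positivity
  have e1 : (t * (1 - η) * BX + (1 - t * (1 - η)) * BO) ^ 4 / (t * CX + (1 - t) * CO) =
      BO ^ 4 / CO * ((1 - t * (1 - η) * (1 - BX / BO)) ^ 4 / (1 - t * (1 - CX / CO))) := by
    have e2 : 1 - t * (1 - η) * (1 - BX / BO) =
        (t * (1 - η) * BX + (1 - t * (1 - η)) * BO) / BO := by
      field_simp
      ring
    have e3 : 1 - t * (1 - CX / CO) = (t * CX + (1 - t) * CO) / CO := by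
      field_simp
      ring
    rw [e2, e3]
    field_simp
  have e4 : BX ^ 4 / min CO (lam * CX) =
      BO ^ 4 / CO * ((BX / BO) ^ 4 * max 1 (1 / (lam * (CX / CO)))) := by
    rcases le_total CO (lam * CX) with hle | hle
    · rw [min_eq_left hle, max_eq_left]
      · field_simp
      · rw [div_le_one (by positivity), ← mul_div_assoc, le_div_iff₀ hCO, one_mul]
        exact hle
    · rw [min_eq_right hle, max_eq_right]
      · field_simp
      · rw [le_div_iff₀ (by positivity), one_mul, ← mul_div_assoc, div_le_one hCO]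
        exact hle
  have e5 : t * (BX ^ 4 / CX) = BO ^ 4 / CO * (t * (BX / BO) ^ 4 / (CX / CO)) := by
    field_simp
  rw [e1, e4, e5]
  have h2 : 0 < BO ^ 4 / CO := by positivity
  have h3 := mul_le_mul_of_nonneg_left h1 h2.le
  calc _ = BO ^ 4 / CO * ((1 - t * (1 - η) * (1 - BX / BO)) ^ 4 / (1 - t * (1 - CX / CO)) +
        η * t * (BX / BO) ^ 4 * max 1 (1 / (lam * (CX / CO)))) := by ring
    _ ≤ _ := h3
    _ = _ := by ring

/-- The one-coordinate inequality. -/
theorem star {θ δ ε lam : ℝ} (hQ : ∀ t η, 0 ≤ t → t ≤ 1 / 2 → 0 ≤ η → η ≤ 1 / 10 → QI t η lam)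
    (hC : QC) (hlam : 0 < lam) (hθ : 0 ≤ θ) (hθδ : θ ≤ δ) (hs : θ + δ ≤ 1) (hε : 0 ≤ ε)
    (hε' : ε ≤ θ / 10) {BO BR BX CO CR CX : ℝ} (hBO : 0 < BO) (hBR : 0 ≤ BR) (hBX : 0 ≤ BX)
    (hB : BX ≤ BO) (hCO : 0 < CO) (hCR : 0 < CR) (hCX : 0 < CX) (hCC : CX ≤ CO) :
    ((1 - θ - δ) * BR + (θ - ε) * BX + (δ + ε) * BO) ^ 4 /
        ((1 - θ - δ) * CR + θ * CX + δ * CO) + ε * (BX ^ 4 / min CO (lam * CX)) ≤
      θ * (BX ^ 4 / CX) + (1 - θ - δ) * (BR ^ 4 / CR) + (δ + ε) * (BO ^ 4 / CO) := by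
  rcases eq_or_lt_of_le hθ with h0 | h0
  · -- no planting
    subst h0
    have hε0 : ε = 0 := by linarith
    subst hε0
    have h1 := hC (1 - δ) BR CR BO CO (by linarith) (by linarith) hBR hCR hBO.le hCO
    have e1 : (1 - (1 - δ)) = δ := by ring
    rw [e1] at h1
    simp only [sub_zero, add_zero, zero_mul, zero_add]
    exact h1
  · have hT : 0 < θ + δ := by linarith
    set T := θ + δ with hTdef
    have h1 := hC (1 - T) BR CR (((θ - ε) * BX + (δ + ε) * BO) / T) ((θ * CX + δ * CO) / T)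
      (by linarith) (by linarith) hBR hCR
      (div_nonneg (add_nonneg (mul_nonneg (by linarith) hBX) (mul_nonneg (by linarith) hBO.le))
        hT.le)
      (div_pos (add_pos_of_pos_of_nonneg (mul_pos h0 hCX)
        (mul_nonneg (by linarith) hCO.le)) hT)
    have e1 : (1 - (1 - T)) = T := by ring
    rw [e1] at h1
    have e2 : T * (((θ - ε) * BX + (δ + ε) * BO) / T) = (θ - ε) * BX + (δ + ε) * BO := by
      field_simp
    have e3 : T * ((θ * CX + δ * CO) / T) = θ * CX + δ * CO := by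
      field_simp
    rw [e2, e3] at h1
    have hη : ε / θ ≤ 1 / 10 := by
      rw [div_le_iff₀ h0]
      linarith
    have hη0 : 0 ≤ ε / θ := by positivity
    have ht : θ / T ≤ 1 / 2 := by
      rw [div_le_iff₀ hT]
      linarith
    have ht0 : 0 ≤ θ / T := by positivity
    have h2 := (hQ (θ / T) (ε / θ) ht0 ht hη0 hη).hom hlam hBO hBX hB hCO hCX hCC ht0
      (by linarith)
    have e6 : ε / θ * (θ / T) = ε / T := by
      field_simp
    have e60 : θ / T * (1 - ε / θ) = (θ - ε) / T := by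
      field_simp
    have e61 : 1 - θ / T = δ / T := by
      rw [eq_div_iff hT.ne', sub_mul, div_mul_cancel₀ _ hT.ne', hTdef]
      ring
    have e62 : 1 - (θ - ε) / T = (δ + ε) / T := by
      rw [eq_div_iff hT.ne', sub_mul, div_mul_cancel₀ _ hT.ne', hTdef]
      ring
    have e4 : θ / T * (1 - ε / θ) * BX + (1 - θ / T * (1 - ε / θ)) * BO =
        ((θ - ε) * BX + (δ + ε) * BO) / T := by
      rw [e60, e62]
      ring
    have e5 : θ / T * CX + (1 - θ / T) * CO = (θ * CX + δ * CO) / T := by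
      rw [e61]
      ring
    have e7 : 1 - θ / T + ε / θ * (θ / T) = (δ + ε) / T := by
      rw [e61, e6]
      ring
    rw [e4, e5, e7, e6] at h2
    have h3 := mul_le_mul_of_nonneg_left h2 hT.le
    have e8 : T * ((((θ - ε) * BX + (δ + ε) * BO) / T) ^ 4 / ((θ * CX + δ * CO) / T) +
        ε / T * (BX ^ 4 / min CO (lam * CX))) =
        T * ((((θ - ε) * BX + (δ + ε) * BO) / T) ^ 4 / ((θ * CX + δ * CO) / T)) +
        ε * (BX ^ 4 / min CO (lam * CX)) := by
      have : T * (ε / T * (BX ^ 4 / min CO (lam * CX))) = ε * (BX ^ 4 / min CO (lam * CX)) := by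
        rw [← mul_assoc, mul_div_cancel₀ _ hT.ne']
      rw [mul_add, this]
    have e9 : T * (θ / T * (BX ^ 4 / CX) + (δ + ε) / T * (BO ^ 4 / CO)) =
        θ * (BX ^ 4 / CX) + (δ + ε) * (BO ^ 4 / CO) := by
      rw [mul_add, ← mul_assoc, ← mul_assoc, mul_div_cancel₀ _ hT.ne', mul_div_cancel₀ _ hT.ne']
    rw [e8, e9] at h3
    have e10 : 1 - θ - δ = 1 - T := by rw [hTdef]; ring
    rw [e10]
    have e11 : (1 - T) * BR + (θ - ε) * BX + (δ + ε) * BO =
        (1 - T) * BR + ((θ - ε) * BX + (δ + ε) * BO) := by ring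
    have e12 : (1 - T) * CR + θ * CX + δ * CO = (1 - T) * CR + (θ * CX + δ * CO) := by ring
    rw [e11, e12]
    linarith

theorem Bn_nonneg {n : ℕ} {θ δ : Fin n → ℝ} (hg : Good θ δ) {φ : (Fin n → Lab) → ℝ}
    (hφ : ∀ ω, 0 ≤ φ ω) (ω : Fin n → Lab) (y : Fin n → Bool) : 0 ≤ Bn θ δ φ ω y :=
  EX_nonneg (fun e l' => kw_nonneg (hg.θ0 _) (hg.δ0 _) (hg.s0 _) _ _ _) hφ

theorem Bn_mono {n : ℕ} {θ δ : Fin n → ℝ} (hg : Good θ δ) {φ ψ : (Fin n → Lab) → ℝ}
    (h : ∀ ω, φ ω ≤ ψ ω) (ω : Fin n → Lab) (y : Fin n → Bool) : Bn θ δ φ ω y ≤ Bn θ δ ψ ω y :=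
  EX_mono (fun e l' => kw_nonneg (hg.θ0 _) (hg.δ0 _) (hg.s0 _) _ _ _) h

theorem kw_sum (θ δ : ℝ) (l : Lab) (y : Bool) : ∑ l', kw θ δ l y l' = 1 := by
  rw [sum_lab]
  cases l <;> cases y <;> simp [kw, Pi.single_apply]

theorem Bn_pos {n : ℕ} {θ δ : Fin n → ℝ} (hg : Good θ δ) {φ : (Fin n → Lab) → ℝ}
    (hφ : ∀ ω, 0 < φ ω) (ω : Fin n → Lab) (y : Fin n → Bool) : 0 < Bn θ δ φ ω y := by
  obtain ⟨ω₀, -, h0⟩ := exists_min_image (univ : Finset (Fin n → Lab)) φ ⟨fun _ => O, mem_univ _⟩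
  refine lt_of_lt_of_le (hφ ω₀) ?_
  have h1 : Bn θ δ (fun _ => φ ω₀) ω y = φ ω₀ := by
    rw [Bn, EX_one]
    exact fun e => kw_sum _ _ _ _
  rw [← h1]
  exact Bn_mono hg (fun ω' => h0 ω' (mem_univ _)) ω y

/-- **The quenched joint reverse Lipschitz inequality**, on `Fin n`, for positive functions. -/
theorem jrl_fin {lam : ℝ} (hQ : ∀ t η, 0 ≤ t → t ≤ 1 / 2 → 0 ≤ η → η ≤ 1 / 10 → QI t η lam)
    (hC : QC) (hlam : 1 ≤ lam) {n : ℕ} {r θ δ ε : Fin n → ℝ} (hr : ∀ e, 0 ≤ r e)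
    (hr1 : ∀ e, r e * (1 + ε e) ≤ 1) (hθδ : ∀ e, θ e ≤ δ e) (hs : ∀ e, θ e + δ e ≤ 1)
    (hε : ∀ e, 0 ≤ ε e) (hε' : ∀ e, ε e ≤ θ e / 10) {φ : (Fin n → Lab) → ℝ}
    (hφ : ∀ ω, 0 < φ ω) (hd : ∀ ω e, φ (Function.update ω e X) ≤ φ (Function.update ω e O)) :
    EX (fun e => lw (r e) (ε e)) (fun ω =>
      Bn (fun e => θ e - ε e) (fun e => δ e + ε e) φ ω (fun _ => true) ^ 4 / Xi lam θ δ φ ω) ≤
      EX (fun e => nw (r e) (θ e) (δ e)) (fun ω => φ ω ^ 3) := by
  induction n with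
  | zero =>
    refine le_of_eq ?_
    unfold EX
    refine sum_congr rfl fun ω _ => ?_
    simp only [univ_eq_empty, prod_empty, one_mul]
    have h1 : Bn (fun e => θ e - ε e) (fun e => δ e + ε e) φ ω (fun _ => true) = φ ω := by
      rw [Bn, EX]
      simp only [univ_eq_empty, prod_empty, one_mul]
      rw [Fintype.sum_unique]
      exact congrArg φ (Subsingleton.elim _ _)
    have h2 : Xi lam θ δ φ ω = φ ω := rfl
    rw [h1, h2]
    have := hφ ω
    field_simp
  | succ n ih =>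
    have hθ : ∀ e, 0 ≤ θ e := fun e => by have := hε e; have := hε' e; linarith
    have hg : Good θ δ := ⟨hθ, fun e => (hθ e).trans (hθδ e), hs⟩
    have hg' : Good (fun e => θ e - ε e) (fun e => δ e + ε e) :=
      ⟨fun e => by have := hε e; have := hε' e; linarith,
        fun e => add_nonneg (hg.δ0 e) (hε e), fun e => by have := hs e; linarith⟩
    have ihl : ∀ l : Lab, EX (fun e : Fin n => lw (r e.succ) (ε e.succ)) (fun ω =>
        Bn (fun e : Fin n => θ e.succ - ε e.succ) (fun e : Fin n => δ e.succ + ε e.succ)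
          (fun τ => φ (Fin.cons l τ)) ω (fun _ => true) ^ 4 /
        Xi lam (fun i : Fin n => θ i.succ) (fun i : Fin n => δ i.succ)
          (fun τ => φ (Fin.cons l τ)) ω) ≤
        EX (fun e : Fin n => nw (r e.succ) (θ e.succ) (δ e.succ))
          (fun ω => φ (Fin.cons l ω) ^ 3) := by
      intro l
      refine ih (fun e => hr _) (fun e => hr1 _) (fun e => hθδ _) (fun e => hs _) (fun e => hε _)
        (fun e => hε' _) (fun ω => hφ _) fun ω e => ?_
      have h1 := hd (Fin.cons l ω) e.succ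
      rw [← Fin.cons_update, ← Fin.cons_update] at h1
      exact h1
    rw [EX_cons, EX_cons]
    -- the three labels
    have hpt : ∀ ω : Fin n → Lab, ∑ l, lw (r 0) (ε 0) l *
        (Bn (fun e => θ e - ε e) (fun e => δ e + ε e) φ (Fin.cons l ω) (fun _ => true) ^ 4 /
          Xi lam θ δ φ (Fin.cons l ω)) ≤
        ∑ l, nw (r 0) (θ 0) (δ 0) l *
          (Bn (fun e : Fin n => θ e.succ - ε e.succ) (fun e : Fin n => δ e.succ + ε e.succ)
            (fun τ => φ (Fin.cons l τ)) ω (fun _ => true) ^ 4 /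
          Xi lam (fun i : Fin n => θ i.succ) (fun i : Fin n => δ i.succ)
            (fun τ => φ (Fin.cons l τ)) ω) := by
      intro ω
      have hxi := fun l : Lab => Xi_pos (lam := lam) (by linarith) hg.tail
        (φ := fun τ => φ (Fin.cons l τ)) (fun _ => hφ _) ω
      have hbb := fun l : Lab => Bn_pos hg'.tail (φ := fun τ => φ (Fin.cons l τ)) (fun _ => hφ _)
        ω (fun _ => true)
      have hox : ∀ τ : Fin n → Lab, φ (Fin.cons X τ) ≤ φ (Fin.cons O τ) := by
        intro τ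
        have h1 := hd (Fin.cons X τ) 0
        rw [Fin.update_cons_zero, Fin.update_cons_zero] at h1
        exact h1
      have hxi2 := Xi_mono (lam := lam) (by linarith) hg.tail (φ := fun τ => φ (Fin.cons X τ))
        (ψ := fun τ => φ (Fin.cons O τ)) hox ω
      have hbb2 := Bn_mono hg'.tail (φ := fun τ => φ (Fin.cons X τ))
        (ψ := fun τ => φ (Fin.cons O τ)) hox ω (fun _ => true)
      have hst := star hQ hC (lam := lam) (by linarith) (hθ 0) (hθδ 0) (hs 0) (hε 0) (hε' 0)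
        (hbb O) (hbb R).le (hbb X).le hbb2 (hxi O) (hxi R) (hxi X) hxi2
      rw [sum_lab, sum_lab, Bn_succ, Bn_succ, Bn_succ, sum_lab, sum_lab, sum_lab, Xi, Xi, Xi]
      simp only [Fin.cons_zero, Fin.cons_succ, lw, nw, kw, Pi.single_apply, reduceCtorEq, if_false,
        if_true, zero_mul, add_zero, zero_add, one_mul]
      have hr0 := hr 0
      have h5 := mul_le_mul_of_nonneg_left hst hr0
      generalize Bn (fun e : Fin n => θ e.succ - ε e.succ) (fun e : Fin n => δ e.succ + ε e.succ)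
        (fun τ => φ (Fin.cons O τ)) ω (fun _ => true) = bO at *
      generalize Bn (fun e : Fin n => θ e.succ - ε e.succ) (fun e : Fin n => δ e.succ + ε e.succ)
        (fun τ => φ (Fin.cons R τ)) ω (fun _ => true) = bR at *
      generalize Bn (fun e : Fin n => θ e.succ - ε e.succ) (fun e : Fin n => δ e.succ + ε e.succ)
        (fun τ => φ (Fin.cons X τ)) ω (fun _ => true) = bX at *
      have e1 : (δ 0 + ε 0) * bO + (1 - (θ 0 - ε 0) - (δ 0 + ε 0)) * bR + (θ 0 - ε 0) * bX =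
          (1 - θ 0 - δ 0) * bR + (θ 0 - ε 0) * bX + (δ 0 + ε 0) * bO := by ring
      have e2 : (fun i => ω i) = ω := rfl
      rw [e1, e2]
      generalize Xi lam (fun i : Fin n => θ i.succ) (fun i : Fin n => δ i.succ)
        (fun τ => φ (Fin.cons O τ)) ω = cO at *
      generalize Xi lam (fun i : Fin n => θ i.succ) (fun i : Fin n => δ i.succ)
        (fun τ => φ (Fin.cons R τ)) ω = cR at *
      generalize Xi lam (fun i : Fin n => θ i.succ) (fun i : Fin n => δ i.succ)
        (fun τ => φ (Fin.cons X τ)) ω = cX at *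
      generalize ((1 - θ 0 - δ 0) * bR + (θ 0 - ε 0) * bX + (δ 0 + ε 0) * bO) ^ 4 /
        ((1 - θ 0 - δ 0) * cR + θ 0 * cX + δ 0 * cO) = Q at *
      generalize bX ^ 4 / min cO (lam * cX) = M at *
      generalize bX ^ 4 / cX = AX at *
      generalize bR ^ 4 / cR = AR at *
      generalize bO ^ 4 / cO = AO at *
      linarith
    have hw1 : ∀ (e : Fin n) (l : Lab), 0 ≤ lw (r e.succ) (ε e.succ) l :=
      fun e l => lw_nonneg (hr _) (hε _) (hr1 _) l
    calc _ = EX (fun i : Fin n => lw (r i.succ) (ε i.succ)) (fun ω => ∑ l, lw (r 0) (ε 0) l *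
          (Bn (fun e => θ e - ε e) (fun e => δ e + ε e) φ (Fin.cons l ω) (fun _ => true) ^ 4 /
            Xi lam θ δ φ (Fin.cons l ω))) := by
          rw [EX_sum]
          refine sum_congr rfl fun l _ => ?_
          rw [EX_mul]
      _ ≤ EX (fun i : Fin n => lw (r i.succ) (ε i.succ)) (fun ω => ∑ l, nw (r 0) (θ 0) (δ 0) l *
          (Bn (fun e : Fin n => θ e.succ - ε e.succ) (fun e : Fin n => δ e.succ + ε e.succ)
            (fun τ => φ (Fin.cons l τ)) ω (fun _ => true) ^ 4 /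
          Xi lam (fun i : Fin n => θ i.succ) (fun i : Fin n => δ i.succ)
            (fun τ => φ (Fin.cons l τ)) ω)) := EX_mono hw1 hpt
      _ = ∑ l, nw (r 0) (θ 0) (δ 0) l * EX (fun i : Fin n => lw (r i.succ) (ε i.succ)) (fun ω =>
          Bn (fun e : Fin n => θ e.succ - ε e.succ) (fun e : Fin n => δ e.succ + ε e.succ)
            (fun τ => φ (Fin.cons l τ)) ω (fun _ => true) ^ 4 /
          Xi lam (fun i : Fin n => θ i.succ) (fun i : Fin n => δ i.succ)
            (fun τ => φ (Fin.cons l τ)) ω) := by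
          rw [EX_sum]
          refine sum_congr rfl fun l _ => ?_
          rw [EX_mul]
      _ ≤ _ := sum_le_sum fun l _ => mul_le_mul_of_nonneg_left (ihl l)
          (nw_nonneg (hr 0) (hε 0) (hr1 0) (hθ 0) (hg.δ0 0) (hs 0) l)

theorem Bn_add {n : ℕ} (θ δ : Fin n → ℝ) (φ : (Fin n → Lab) → ℝ) (c : ℝ) (ω : Fin n → Lab)
    (y : Fin n → Bool) : Bn θ δ (fun τ => φ τ + c) ω y = Bn θ δ φ ω y + c := by
  rw [Bn, EX_add, EX_one _ (fun e => kw_sum _ _ _ _)]
  rfl

open Classical in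
/-- The Markov form, on `Fin n`. -/
theorem markov_fin {lam : ℝ}
    (hQ : ∀ t η, 0 ≤ t → t ≤ 1 / 2 → 0 ≤ η → η ≤ 1 / 10 → QI t η lam)
    (hC : QC) (hlam : 1 ≤ lam) {n : ℕ} {r θ δ ε : Fin n → ℝ} (hr : ∀ e, 0 ≤ r e)
    (hr1 : ∀ e, r e * (1 + ε e) ≤ 1) (hθδ : ∀ e, θ e ≤ δ e) (hs : ∀ e, θ e + δ e ≤ 1)
    (hε : ∀ e, 0 ≤ ε e) (hε' : ∀ e, ε e ≤ θ e / 10) {φ : (Fin n → Lab) → ℝ}
    (hφ : ∀ ω, 0 ≤ φ ω) (hd : ∀ ω e, φ (Function.update ω e X) ≤ φ (Function.update ω e O))
    {α β : ℝ} (hα : 0 ≤ α) (hβ : 0 ≤ β) :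
    β ^ 4 * EX (fun e => lw (r e) (ε e)) (fun ω =>
      if (∃ y : Fin n → Bool, (∏ e, if y e = true then lam else 1) * Bn θ δ φ ω y ≤ α) ∧
        β ≤ Bn (fun e => θ e - ε e) (fun e => δ e + ε e) φ ω (fun _ => true) then 1 else 0) ≤
      α * EX (fun e => nw (r e) (θ e) (δ e)) (fun ω => φ ω ^ 3) := by
  have hθ : ∀ e, 0 ≤ θ e := fun e => by have := hε e; have := hε' e; linarith
  have hg : Good θ δ := ⟨hθ, fun e => (hθ e).trans (hθδ e), hs⟩
  have hw : ∀ (e : Fin n) (l : Lab), 0 ≤ lw (r e) (ε e) l :=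
    fun e l => lw_nonneg (hr _) (hε _) (hr1 _) l
  set P := EX (fun e => lw (r e) (ε e)) (fun ω =>
      if (∃ y : Fin n → Bool, (∏ e, if y e = true then lam else 1) * Bn θ δ φ ω y ≤ α) ∧
        β ≤ Bn (fun e => θ e - ε e) (fun e => δ e + ε e) φ ω (fun _ => true) then (1 : ℝ) else 0)
    with hP
  set f : ℝ → ℝ := fun c => (α + lam ^ n * c) *
    EX (fun e => nw (r e) (θ e) (δ e)) (fun ω => (φ ω + c) ^ 3) with hf
  have hlam0 : 0 < lam := by linarith
  have key : ∀ c : ℝ, 0 < c → β ^ 4 * P ≤ f c := by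
    intro c hc
    have hφc : ∀ ω : Fin n → Lab, 0 < φ ω + c := fun ω => add_pos_of_nonneg_of_pos (hφ ω) hc
    have h1 := jrl_fin hQ hC hlam hr hr1 hθδ hs hε hε' (φ := fun ω => φ ω + c) hφc
      (fun ω e => add_le_add_left (hd ω e) c)
    have hA : 0 < α + lam ^ n * c := by positivity
    have h2 : β ^ 4 / (α + lam ^ n * c) * P ≤ EX (fun e => lw (r e) (ε e)) (fun ω =>
        Bn (fun e => θ e - ε e) (fun e => δ e + ε e) (fun ω => φ ω + c) ω (fun _ => true) ^ 4 /
          Xi lam θ δ (fun ω => φ ω + c) ω) := by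
      rw [hP, ← EX_mul]
      refine EX_mono hw fun ω => ?_
      have hxi := Xi_pos hlam0 hg hφc ω
      split_ifs with h
      · obtain ⟨⟨y, hy⟩, hb⟩ := h
        rw [mul_one]
        have h3 := Xi_le hlam hg (φ := fun ω => φ ω + c) (fun ω => (hφc ω).le) ω y
        rw [Bn_add, mul_add] at h3
        have h4 : (∏ e : Fin n, if y e = true then lam else 1) ≤ lam ^ n := by
          calc (∏ e : Fin n, if y e = true then lam else 1) ≤ ∏ _e : Fin n, lam := by
                refine prod_le_prod (fun e _ => ?_) fun e _ => ?_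
                · split_ifs <;> linarith
                · split_ifs <;> linarith
            _ = lam ^ n := by simp
        have h5 : Xi lam θ δ (fun ω => φ ω + c) ω ≤ α + lam ^ n * c := by
          have := mul_le_mul_of_nonneg_right h4 hc.le
          linarith
        rw [Bn_add]
        refine div_le_div₀ (by positivity) ?_ hxi h5
        exact pow_le_pow_left₀ hβ (by linarith) 4
      · rw [mul_zero]
        positivity
    have h6 := h2.trans h1
    rw [div_mul_eq_mul_div, div_le_iff₀ hA] at h6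
    rw [hf]
    linarith
  have hcont : Continuous f := by
    rw [hf]
    unfold EX
    fun_prop
  have hlim : Filter.Tendsto f (nhdsWithin 0 (Set.Ioi 0)) (nhds (f 0)) :=
    (hcont.tendsto 0).mono_left nhdsWithin_le_nhds
  have h7 : β ^ 4 * P ≤ f 0 :=
    ge_of_tendsto hlim (Filter.eventually_of_mem self_mem_nhdsWithin fun c hc => key c hc)
  rw [hf] at h7
  simpa using h7

end fin

section gen

variable {E : Type*} [Fintype E] [DecidableEq E]

/-- The averages over the noise: the elements of the sample become planted with probability `θ` and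
are deleted with probability `δ`; the planted elements outside `Y` are deleted. -/
noncomputable def EN (θ δ : E → ℝ) (φ : (E → Lab) → ℝ) (ω : E → Lab) (Y : Finset E) : ℝ :=
  EX (fun e => kw (θ e) (δ e) (ω e) (decide (e ∈ Y))) φ

theorem EN_reindex {n : ℕ} (σ : E ≃ Fin n) (θ δ : E → ℝ) (φ : (E → Lab) → ℝ)
    (ω : Fin n → Lab) (Y : Finset E) :
    EN θ δ φ (ω ∘ σ) Y = Bn (fun i => θ (σ.symm i)) (fun i => δ (σ.symm i))
      (fun τ => φ (τ ∘ σ)) ω (fun i => decide (σ.symm i ∈ Y)) := by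
  rw [EN, EX_reindex σ, Bn]
  simp only [Function.comp_apply, Equiv.apply_symm_apply]

open Classical in
/-- **The quenched joint reverse Lipschitz inequality**, Markov form, from the scalar inequalities. -/
theorem qjrl_of {lam : ℝ}
    (hQ : ∀ t η, 0 ≤ t → t ≤ 1 / 2 → 0 ≤ η → η ≤ 1 / 10 → QI t η lam)
    (hC : QC) (hlam : 1 ≤ lam) {r θ δ ε : E → ℝ} (hr : ∀ e, 0 ≤ r e)
    (hr1 : ∀ e, r e * (1 + ε e) ≤ 1) (hθδ : ∀ e, θ e ≤ δ e) (hs : ∀ e, θ e + δ e ≤ 1)
    (hε : ∀ e, 0 ≤ ε e) (hε' : ∀ e, ε e ≤ θ e / 10) {φ : (E → Lab) → ℝ}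
    (hφ : ∀ ω, 0 ≤ φ ω) (hd : ∀ ω e, φ (Function.update ω e X) ≤ φ (Function.update ω e O))
    {α β : ℝ} (hα : 0 ≤ α) (hβ : 0 ≤ β) :
    β ^ 4 * EX (fun e => lw (r e) (ε e)) (fun ω =>
      if (∃ Y : Finset E, lam ^ Y.card * EN θ δ φ ω Y ≤ α) ∧
        β ≤ EN (fun e => θ e - ε e) (fun e => δ e + ε e) φ ω univ then 1 else 0) ≤
      α * EX (fun e => nw (r e) (θ e) (δ e)) (fun ω => φ ω ^ 3) := by
  obtain ⟨n, ⟨σ⟩⟩ : ∃ n, Nonempty (E ≃ Fin n) := ⟨_, ⟨Fintype.equivFin E⟩⟩
  have h := markov_fin hQ hC hlam (r := fun i => r (σ.symm i)) (θ := fun i => θ (σ.symm i))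
    (δ := fun i => δ (σ.symm i)) (ε := fun i => ε (σ.symm i)) (fun i => hr _) (fun i => hr1 _)
    (fun i => hθδ _) (fun i => hs _) (fun i => hε _) (fun i => hε' _)
    (φ := fun τ => φ (τ ∘ σ)) (fun τ => hφ _) (fun τ i => by
      have := hd (τ ∘ σ) (σ.symm i)
      rw [← Function.update_comp_equiv, ← Function.update_comp_equiv] at this
      exact this) hα hβ
  rw [EX_reindex σ (fun e => lw (r e) (ε e)), EX_reindex σ (fun e => nw (r e) (θ e) (δ e))]
  refine le_trans (mul_le_mul_of_nonneg_left (EX_mono (fun i l => lw_nonneg (hr _) (hε _)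
    (hr1 _) l) fun ω => ?_) (by positivity)) h
  simp only [EN_reindex]
  split_ifs with h1 h2 h2
  · exact le_refl _
  · refine absurd ?_ h2
    obtain ⟨⟨Y, hY⟩, hb⟩ := h1
    refine ⟨⟨fun i => decide (σ.symm i ∈ Y), ?_⟩, ?_⟩
    · have e1 : (∏ i : Fin n, if decide (σ.symm i ∈ Y) = true then lam else 1) =
          lam ^ Y.card := by
        simp only [decide_eq_true_eq]
        rw [Equiv.prod_comp σ.symm (fun e => if e ∈ Y then lam else 1), prod_ite_mem, univ_inter,
          prod_const]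
      rw [e1]
      exact hY
    · simpa using hb
  · exact zero_le_one
  · exact le_refl _

end gen

end Vale.Agent.P331.H688
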