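import Vale.Agent.P331.H688.QG
import Vale.Agent.P331.H568.Q1
import Vale.Agent.P331.H250.Ker
import Vale.Agent.P331.H316.Rows

/-!
# The zero gap inequality in the form used by the step
-/

set_option autoImplicit false
set_option linter.all false

namespace Vale.Agent.P331.H688

open Finset Vale.Agent.P331.H489 Vale.Agent.P331.H316
open scoped Classical

/-! ### Pushing labels forward, the map depends on the element -/

theorem EX_pushd {E L C : Type*} [Fintype E] [DecidableEq E] [Fintype L] [DecidableEq L]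
    [Fintype C] [DecidableEq C] (f : E → L → C) (w : E → L → ℝ) (F : (E → C) → ℝ) :
    EX w (fun ω => F (fun e => f e (ω e))) = EX (fun e c => ∑ l with f e l = c, w e l) F := by
  unfold EX
  have h : ∀ κ : E → C, (∏ e, ∑ l with f e l = κ e, w e l) =
      ∑ ω : E → L with (fun e => f e (ω e)) = κ, ∏ e, w e (ω e) := by
    intro κ
    rw [Finset.prod_univ_sum]
    refine sum_congr ?_ fun _ _ => rfl
    ext ω
    simp only [Fintype.mem_piFinset, mem_filter, mem_univ, true_and]
    exact funext_iff.symm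
  simp only [h, sum_mul]
  rw [← sum_fiberwise_of_maps_to (s := univ) (t := univ)
    (g := fun ω : E → L => fun e => f e (ω e)) (fun _ _ => mem_univ _)]
  refine sum_congr rfl fun κ _ => sum_congr rfl fun ω hω => ?_
  rw [(mem_filter.1 hω).2]

section thin

variable {E : Type} [Fintype E]

theorem tw_nonneg {τ : ℝ} (h0 : 0 ≤ τ) (h1 : τ ≤ 1) (b : Bool) : 0 ≤ tw τ b := by
  unfold tw
  split_ifs <;> linarith

theorem tw_sum (τ : ℝ) : ∑ b, tw τ b = 1 := by
  rw [Fintype.sum_bool]
  simp [tw]

theorem thin_mono {τ : ℝ} (h0 : 0 ≤ τ) (h1 : τ ≤ 1) (S : Finset E) {F G : Finset E → ℝ}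
    (h : ∀ N ⊆ S, F N ≤ G N) : thin τ S F ≤ thin τ S G :=
  EX_mono (fun _ b => tw_nonneg h0 h1 b) fun c => h _ (filter_subset _ _)

theorem thin_const (τ : ℝ) (S : Finset E) (c : ℝ) : thin τ S (fun _ => c) = c :=
  EX_one _ (fun _ => tw_sum τ) c

theorem thin_nonneg {τ : ℝ} (h0 : 0 ≤ τ) (h1 : τ ≤ 1) (S : Finset E) {F : Finset E → ℝ}
    (h : ∀ N ⊆ S, 0 ≤ F N) : 0 ≤ thin τ S F :=
  EX_nonneg (fun _ b => tw_nonneg h0 h1 b) fun c => h _ (filter_subset _ _)

theorem thin_le_one {τ : ℝ} (h0 : 0 ≤ τ) (h1 : τ ≤ 1) (S : Finset E) {F : Finset E → ℝ}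
    (h : ∀ N ⊆ S, F N ≤ 1) : thin τ S F ≤ 1 :=
  (thin_mono h0 h1 S h).trans (le_of_eq (thin_const τ S 1))

theorem thin_add (τ : ℝ) (S : Finset E) (F G : Finset E → ℝ) :
    thin τ S (fun N => F N + G N) = thin τ S F + thin τ S G := EX_add _ _ _

theorem thin_sub (τ : ℝ) (S : Finset E) (F G : Finset E → ℝ) :
    thin τ S (fun N => F N - G N) = thin τ S F - thin τ S G := EX_sub _ _ _

theorem ind_nonneg (P : Prop) : 0 ≤ ind P := by
  unfold ind
  split_ifs <;> norm_num

theorem ind_le_one (P : Prop) : ind P ≤ 1 := by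
  unfold ind
  split_ifs <;> norm_num

theorem ind_mono {P Q : Prop} (h : P → Q) : ind P ≤ ind Q := by
  unfold ind
  by_cases hP : P
  · rw [if_pos hP, if_pos (h hP)]
  · rw [if_neg hP]
    split_ifs <;> norm_num

/-- Two stages of thinning. -/
theorem thin_union {n a b : ℝ} (hn : n = a + (1 - a) * b) (S : Finset E) (f : Finset E → ℝ) :
    thin n S f = thin a S (fun G => thin b (S \ G) (fun N => f (G ∪ N))) := by
  unfold thin
  rw [← EX_prod (fun _ : E => tw a) (fun _ : E => tw b)
    (fun c d : E → Bool => f (S.filter (fun e => c e = true) ∪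
      (S \ S.filter (fun e => c e = true)).filter (fun e => d e = true)))]
  have h1 := EX_push (E := E) (fun x : Bool × Bool => x.1 || x.2)
    (fun _ (x : Bool × Bool) => tw a x.1 * tw b x.2)
    (fun c : E → Bool => f (S.filter fun e => c e = true))
  have h2 : ∀ τ : E → Bool × Bool, S.filter (fun e => ((fun x : Bool × Bool => x.1 || x.2) ∘ τ) e =
      true) = S.filter (fun e => (τ e).1 = true) ∪
        (S \ S.filter (fun e => (τ e).1 = true)).filter (fun e => (τ e).2 = true) := by
    intro τ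
    ext e
    simp only [Function.comp_apply, mem_filter, mem_union, mem_sdiff, Bool.or_eq_true]
    tauto
  simp only [h2] at h1
  rw [h1]
  congr 1
  funext e c
  rw [sum_filter, Fintype.sum_prod_type, Fintype.sum_bool, Fintype.sum_bool, Fintype.sum_bool]
  cases c <;> simp [tw, hn] <;> ring

/-- The average over the plain kernel is a thinning. -/
theorem EN_plain (θ : ℝ) (f : Finset E → ℝ) (ω : E → Lab) (Y : Finset E) :
    EN (fun _ => θ) (fun _ => 1 - θ) (fun τ => f (cls τ Lab.X)) ω Y =
      thin θ (cls ω Lab.R) (fun N => f ((Y ∩ cls ω Lab.X) ∪ N)) := by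
  unfold EN thin
  have h1 := EX_push (E := E) (fun l : Lab => decide (l = Lab.X))
    (fun e => kw θ (1 - θ) (ω e) (decide (e ∈ Y)))
    (fun b : E → Bool => f (univ.filter fun e => b e = true))
  have h2 := EX_pushd (fun (e : E) (c : Bool) =>
    (decide (e ∈ Y ∧ ω e = Lab.X) || (decide (ω e = Lab.R) && c)))
    (fun _ => tw θ) (fun b : E → Bool => f (univ.filter fun e => b e = true))
  have e1 : ∀ τ : E → Lab, (univ.filter fun e =>
      ((fun l : Lab => decide (l = Lab.X)) ∘ τ) e = true) = cls τ Lab.X := by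
    intro τ
    ext e
    simp [cls]
  have e2 : ∀ c : E → Bool, (univ.filter fun e =>
      (decide (e ∈ Y ∧ ω e = Lab.X) || (decide (ω e = Lab.R) && c e)) = true) =
      (Y ∩ cls ω Lab.X) ∪ (cls ω Lab.R).filter fun e => c e = true := by
    intro c
    ext e
    simp [cls]
  simp only [e1] at h1
  simp only [e2] at h2
  rw [h1, h2]
  congr 1
  funext e b
  rw [sum_filter, sum_filter, sum_lab, Fintype.sum_bool]
  cases h : ω e <;> cases b <;> by_cases hY : e ∈ Y <;> simp [kw, tw, hY, Pi.single_apply]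

/-- The kernel of the decomposition. -/
noncomputable def kz (ρ ε : ℝ) (c : Option Bool) : Lab → ℝ :=
  lw (if c = none then ρ else 0) ε

/-- The labels. -/
def gz : Option Bool × Lab → L5
  | (none, Lab.X) => L5.v
  | (none, Lab.R) => L5.r
  | (none, Lab.O) => L5.o
  | (some true, _) => L5.h
  | (some false, _) => L5.i

/-- The weights. -/
def wz (h s : ℝ) : Option Bool → ℝ
  | none => 1 - h - s
  | some true => h
  | some false => s

theorem PR5_decomp {p h r s ρ ε : ℝ} (hp : (1 - h - s) * (ρ * ε) = p)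
    (hr : (1 - h - s) * ρ = r) (F : Finset E → Finset E → Finset E → Finset E → ℝ) :
    PR5 p h r s F = EX (fun _ : E => wz h s) (fun ω => EX (fun e => kz ρ ε (ω e)) (fun τ =>
      (fun κ : E → L5 => F (cls κ .v) (cls κ .h) (cls κ .r) (cls κ .i))
        (fun e => gz (ω e, τ e)))) := by
  rw [H250.EX_bind_map (fun _ : E => wz h s) (fun _ : E => kz ρ ε) gz
    (fun κ : E → L5 => F (cls κ .v) (cls κ .h) (cls κ .r) (cls κ .i))]
  unfold PR5
  congr 1
  funext e c
  rw [sum_filter, Fintype.sum_prod_type, Fintype.sum_option, Fintype.sum_bool, sum_lab, sum_lab,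
    sum_lab]
  cases c <;> simp [gz, wz, kz, lw, w5'] <;> linarith

end thin

section main

variable {E : Type} [Fintype E] (D : Finset E → Prop)

/-- The event for a fixed pool. -/
def EvQ (n' b t e lam' β : ℝ) (kap : ℕ) (V H R I : Finset E) : Prop :=
  (∃ Y ⊆ V, Y.card ≤ kap ∧ thin n' R (fun N => ind (e < psi D t I (Y ∪ H ∪ N))) ≤ lam') ∧
    β ≤ thin b R (fun N => ind (e < psi D t I (V ∪ H ∪ N)))

theorem psi_anti (hD : Up D) {t : ℝ} (ht0 : 0 ≤ t) (ht1 : t ≤ 1) (I : Finset E) {U U' : Finset E}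
    (h : U ⊆ U') : psi D t I U' ≤ psi D t I U :=
  thin_mono ht0 ht1 I fun N _ => ind_mono fun h1 h2 =>
    h1 (hD _ _ (union_subset_union_left h) h2)

theorem star1 {θ ε : ℝ} (hθ0 : 0 ≤ θ) (hθ : θ ≤ 1 / 2) (hε0 : 0 ≤ ε) (hε : ε ≤ θ / 10) :
    Star 1 3 16 θ (1 - θ) ε := by
  intro BO BR BX CO CR CX hBR hBX hB hCR hCX hC
  have h := H568.qstep (θ := θ) (δ := 1 - θ) (s := 1 - θ - (1 - θ)) (ε := ε) (bX := BX)
    (bR := BR) (bO := BO) (xX := CX) (xR := CR) (xO := CO) (lam := 16) hθ0 (by linarith)
    (by linarith) (by ring) hε0 hε le_rfl hBX.le hB hCX.le hC hCR.le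
    (fun h => absurd h hCX.ne') (fun h => absurd h (lt_of_lt_of_le hCX hC).ne')
    (fun h => absurd h hCR.ne')
  simp only [pow_one]
  linarith

theorem nw_one {r θ : ℝ} : ∑ l, nw r θ (1 - θ) l = 1 := by
  rw [sum_lab]
  simp only [nw]
  ring

theorem fixed {n' ε t e lam' β ρ : ℝ} {kap : ℕ} (hD : Up D) (ht0 : 0 ≤ t) (ht1 : t ≤ 1)
    (hn0 : 0 ≤ n') (hn1 : n' ≤ 1 / 2) (hε0 : 0 ≤ ε) (hε : ε ≤ n' / 10) (hlam : 0 ≤ lam')
    (hβ : 0 < β) (hρ : 0 ≤ ρ) (hρ1 : ρ * (1 + ε) ≤ 1) (ω : E → Option Bool) :
    EX (fun e => kz ρ ε (ω e)) (fun τ =>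
      (fun κ : E → L5 => ind (EvQ D n' (n' - ε) t e lam' β kap (cls κ .v) (cls κ .h) (cls κ .r)
        (cls κ .i))) (fun e => gz (ω e, τ e))) ≤ 16 ^ kap * lam' / β ^ 4 := by
  set H := cls ω (some true) with hH
  set I := cls ω (some false) with hI
  set f : Finset E → ℝ := fun U => ind (e < psi D t I (U ∪ H)) with hf
  have hfm : ∀ {U U' : Finset E}, U ⊆ U' → f U' ≤ f U := fun {U U'} h => ind_mono fun h1 =>
    lt_of_lt_of_le h1 (psi_anti D hD ht0 ht1 I (union_subset_union_left h))
  have hq := qjrl_gen (E := E) (s := 1) (k := 3) (lam := 16) (by norm_num)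
    (r := fun e => if ω e = none then ρ else 0) (θ := fun _ => n') (δ := fun _ => 1 - n')
    (ε := fun _ => ε) (fun _ => star1 hn0 hn1 hε0 hε)
    (fun e => by split_ifs <;> linarith)
    (fun e => by split_ifs <;> linarith) (fun _ => by linarith)
    (fun _ => by linarith) (fun _ => hε0) (fun _ => by linarith)
    (φ := fun τ => f (cls τ Lab.X)) (fun τ => ind_nonneg _) (fun τ e => hfm (fun x hx => by
      simp only [cls, mem_filter, mem_univ, true_and] at hx ⊢
      by_cases hxe : x = e
      · subst hxe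
        exact Function.update_self ..
      · rw [Function.update_of_ne hxe] at hx ⊢
        exact hx)) (α := 16 ^ kap * lam') (β := β) (by positivity) hβ.le
  have h1 : EX (fun e => nw (if ω e = none then ρ else 0) n' (1 - n'))
      (fun τ => f (cls τ Lab.X) ^ 3) ≤ 1 := by
    refine le_trans (EX_mono (G := fun _ => 1) (fun e l => ?_) fun τ =>
      pow_le_one₀ (ind_nonneg _) (ind_le_one _)) (le_of_eq (EX_one _ (fun e => nw_one) 1))
    refine nw_nonneg ?_ hε0 ?_ hn0 (by linarith) (by linarith) l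
    · split_ifs <;> linarith
    · split_ifs <;> linarith
  rw [le_div_iff₀ (by positivity), mul_comm]
  refine le_trans ?_ (hq.trans ((mul_le_mul_of_nonneg_left h1 (by positivity)).trans
    (le_of_eq (by ring))))
  refine mul_le_mul_of_nonneg_left (H250.EX_mono_supp (fun e l => ?_) fun τ hτ => ?_)
    (by positivity)
  · refine lw_nonneg ?_ hε0 ?_ l
    · split_ifs <;> linarith
    · split_ifs <;> linarith
  · -- on the support the classes are those of `τ`
    have hsupp : ∀ x, ω x ≠ none → τ x = Lab.O := by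
      intro x hx
      have := hτ x
      rw [kz, if_neg hx] at this
      cases h : τ x with
      | O => rfl
      | R => rw [h] at this; simp [lw] at this
      | X => rw [h] at this; simp [lw] at this
    have c1 : cls (fun e => gz (ω e, τ e)) L5.v = cls τ Lab.X := by
      ext x
      simp only [cls, mem_filter, mem_univ, true_and]
      cases h : ω x with
      | none => cases h' : τ x <;> simp [gz]
      | some b =>
        have := hsupp x (by rw [h]; simp)
        rw [this]
        cases b <;> simp [gz]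
    have c2 : cls (fun e => gz (ω e, τ e)) L5.r = cls τ Lab.R := by
      ext x
      simp only [cls, mem_filter, mem_univ, true_and]
      cases h : ω x with
      | none => cases h' : τ x <;> simp [gz]
      | some b =>
        have := hsupp x (by rw [h]; simp)
        rw [this]
        cases b <;> simp [gz]
    have c3 : cls (fun e => gz (ω e, τ e)) L5.h = H := by
      ext x
      simp only [hH, cls, mem_filter, mem_univ, true_and]
      cases h : ω x with
      | none => cases h' : τ x <;> simp [gz]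
      | some b => cases b <;> simp [gz]
    have c4 : cls (fun e => gz (ω e, τ e)) L5.i = I := by
      ext x
      simp only [hI, cls, mem_filter, mem_univ, true_and]
      cases h : ω x with
      | none => cases h' : τ x <;> simp [gz]
      | some b => cases b <;> simp [gz]
    simp only [c1, c2, c3, c4]
    rw [ind]
    split_ifs with g1 g2 g2
    · exact le_rfl
    · refine absurd ?_ g2
      obtain ⟨⟨Y, hY, hYc, hY1⟩, hb⟩ := g1
      refine ⟨⟨Y, ?_⟩, ?_⟩
      · rw [EN_plain, inter_eq_left.2 hY]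
        have e1 : (fun N => f (Y ∪ N)) = (fun N => ind (e < psi D t I (Y ∪ H ∪ N))) := by
          funext N
          rw [hf]
          simp only
          rw [union_right_comm]
        rw [e1]
        exact mul_le_mul (pow_le_pow_right₀ (by norm_num) hYc) hY1
          (thin_nonneg hn0 (by linarith) _ fun _ _ => ind_nonneg _) (by positivity)
      · have e2 : (fun _ : E => 1 - n' + ε) = (fun _ : E => 1 - (n' - ε)) := by
          funext _
          ring
        rw [e2, EN_plain, univ_inter]
        have e1 : (fun N => f (cls τ Lab.X ∪ N)) =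
            (fun N => ind (e < psi D t I (cls τ Lab.X ∪ H ∪ N))) := by
          funext N
          rw [hf]
          simp only
          rw [union_right_comm]
        rw [e1]
        exact hb
    · exact zero_le_one
    · exact le_rfl

theorem fl_split {n a b e t : ℝ} (hn : n = a + (1 - a) * b) (R I X : Finset E) :
    fl D n t e R I X = thin a R (fun G => thin b (R \ G) (fun N =>
      ind (e < psi D t I (X ∪ G ∪ N)))) := by
  rw [fl, thin_union hn]
  simp only [union_assoc]

theorem PR_mono5 {p x s : ℝ} (hp : 0 ≤ p) (hx : 0 ≤ x) (hs : 0 ≤ s) (h : p + x + s ≤ 1)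
    {F G : Finset E → Finset E → Finset E → ℝ} (hFG : ∀ V R I, F V R I ≤ G V R I) :
    PR p x s F ≤ PR p x s G := by
  refine EX_mono (fun _ l => ?_) fun κ => hFG _ _ _
  cases l <;> simp only [w4] <;> linarith

/-- **ROW QJ.** -/
theorem rowQJ (hS : RowSPLIT) : RowQJ := by
  intro E _ D hD s₁ s₂ g n t e lam' zet' β kap hs1 hs2 hs hg0 hg hn0 hn hgn ht0 ht1 hlam hzet hβ
  have h1g : 0 < 1 - g := by linarith
  have h2g : 0 < 1 - 2 * g := by linarith
  set a := g / (1 - g) with ha
  set n' := n * (1 - g) / (1 - 2 * g) with hn'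
  set ε := g / (1 - 2 * g) with hε
  have ha0 : 0 ≤ a := by positivity
  have ha1 : a ≤ 1 := by
    rw [ha, div_le_one h1g]
    linarith
  have hn'0 : 0 ≤ n' := by positivity
  have hn'1 : n' ≤ 1 / 2 := by
    rw [hn', div_le_iff₀ h2g]
    nlinarith
  have hε0 : 0 ≤ ε := by positivity
  have hnn : n = a + (1 - a) * (n' - ε) := by
    have q1 : 1 - a = (1 - 2 * g) / (1 - g) := by
      rw [eq_div_iff h1g.ne', sub_mul, ha, div_mul_cancel₀ _ h1g.ne']
      ring
    have q2 : n' - ε = (n * (1 - g) - g) / (1 - 2 * g) := by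
      rw [hn', hε, ← sub_div]
    have q3 : (1 - a) * (n' - ε) = (n * (1 - g) - g) / (1 - g) := by
      rw [q1, q2, div_mul_div_comm, mul_comm (1 - 2 * g), mul_div_mul_right _ _ h2g.ne']
    rw [q3, ha, ← add_div, eq_div_iff h1g.ne']
    ring
  have hb0 : 0 ≤ n' - ε := by linarith
  have hb1 : n' - ε ≤ 1 := by linarith
  -- the pointwise bound
  have hpt : ∀ X R I : Finset E, ind (BB D a n' t e lam' zet' kap R I X) * fl D n t e R I X ≤
      (zet' + β) + thin a R (fun G => ind (EvQ D n' (n' - ε) t e lam' β kap X G (R \ G) I)) := by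
    intro X R I
    have hT0 : 0 ≤ thin a R (fun G => ind (EvQ D n' (n' - ε) t e lam' β kap X G (R \ G) I)) :=
      thin_nonneg ha0 ha1 R fun _ _ => ind_nonneg _
    by_cases hBB : BB D a n' t e lam' zet' kap R I X
    · rw [ind, if_pos hBB, one_mul, fl_split D hnn]
      have h1 : thin a R (fun G => thin (n' - ε) (R \ G) (fun N =>
          ind (e < psi D t I (X ∪ G ∪ N)))) ≤ thin a R (fun G =>
          ((1 - ind (bb D n' t e lam' kap R I X G)) + β) +
            ind (EvQ D n' (n' - ε) t e lam' β kap X G (R \ G) I)) := by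
        refine thin_mono ha0 ha1 R fun G _ => ?_
        have hB1 : thin (n' - ε) (R \ G) (fun N => ind (e < psi D t I (X ∪ G ∪ N))) ≤ 1 :=
          thin_le_one hb0 hb1 _ fun _ _ => ind_le_one _
        by_cases hb : bb D n' t e lam' kap R I X G
        · rw [ind, if_pos hb]
          by_cases hβB : β ≤ thin (n' - ε) (R \ G) (fun N => ind (e < psi D t I (X ∪ G ∪ N)))
          · have hev : EvQ D n' (n' - ε) t e lam' β kap X G (R \ G) I := by
              obtain ⟨Y, hY, hYc, hfl⟩ := hb
              exact ⟨⟨Y, hY, hYc, hfl⟩, hβB⟩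
            rw [ind, if_pos hev]
            linarith
          · have := ind_nonneg (EvQ D n' (n' - ε) t e lam' β kap X G (R \ G) I)
            push Not at hβB
            linarith
        · rw [ind, if_neg hb]
          have := ind_nonneg (EvQ D n' (n' - ε) t e lam' β kap X G (R \ G) I)
          linarith
      rw [thin_add, thin_add, thin_sub, thin_const, thin_const] at h1
      have h2 : 1 - zet' ≤ thin a R fun G => ind (bb D n' t e lam' kap R I X G) := hBB
      linarith
    · rw [ind, if_neg hBB, zero_mul]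
      linarith
  have hp0 : 0 ≤ s₁ * g := by positivity
  have hx0 : 0 ≤ s₁ * (1 - g) := by positivity
  have hsum : s₁ * g + s₁ * (1 - g) + s₂ ≤ 1 := by linarith
  refine (PR_mono5 hp0 hx0 hs2 hsum hpt).trans ?_
  have e1 : PR (E := E) (s₁ * g) (s₁ * (1 - g)) s₂ (fun X R I => (zet' + β) +
      thin a R (fun G => ind (EvQ D n' (n' - ε) t e lam' β kap X G (R \ G) I))) =
      (zet' + β) + PR (s₁ * g) (s₁ * (1 - g)) s₂ (fun X R I =>
        thin a R (fun G => ind (EvQ D n' (n' - ε) t e lam' β kap X G (R \ G) I))) := by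
    unfold PR
    rw [EX_add, EX_one]
    intro _
    rw [sum_L4]
    simp only [w4]
    ring
  rw [e1]
  refine add_le_add_right ?_ _
  rw [hS E (s₁ * g) (s₁ * (1 - g)) s₂ a
    (fun X G R I => ind (EvQ D n' (n' - ε) t e lam' β kap X G R I))]
  have e2 : s₁ * (1 - g) * a = s₁ * g := by
    rw [ha]
    field_simp
  have e3 : s₁ * (1 - g) * (1 - a) = s₁ * (1 - 2 * g) := by
    rw [ha]
    field_simp
    ring
  rw [e2, e3]
  set W := 1 - s₁ * g - s₂ with hW
  have hr0 : 0 ≤ s₁ * (1 - 2 * g) := by positivity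
  have hWr : s₁ * g + s₁ * (1 - 2 * g) ≤ W := by
    rw [hW]
    nlinarith
  have hW0 : 0 ≤ W := by linarith
  set ρ := s₁ * (1 - 2 * g) / W with hρ
  have hrε : s₁ * (1 - 2 * g) * ε = s₁ * g := by
    rw [hε]
    field_simp
  have hρW : W * ρ = s₁ * (1 - 2 * g) := by
    rcases hW0.eq_or_lt with h0 | h0
    · rw [← h0, zero_mul]
      linarith
    · rw [hρ, mul_div_cancel₀ _ h0.ne']
  have hρ0 : 0 ≤ ρ := by positivity
  have hρ1 : ρ * (1 + ε) ≤ 1 := by
    rcases hW0.eq_or_lt with h0 | h0
    · rw [hρ, ← h0, div_zero, zero_mul]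
      exact zero_le_one
    · rw [hρ, div_mul_eq_mul_div, div_le_one h0]
      linarith
  rw [PR5_decomp (ρ := ρ) (ε := ε) (by rw [← mul_assoc, hρW, hrε]) hρW]
  have h3 : ∀ ω : E → Option Bool, EX (fun e => kz ρ ε (ω e)) (fun τ =>
      (fun κ : E → L5 => ind (EvQ D n' (n' - ε) t e lam' β kap (cls κ .v) (cls κ .h) (cls κ .r)
        (cls κ .i))) (fun e => gz (ω e, τ e))) ≤ 16 ^ kap * lam' / β ^ 4 :=
    fun ω => fixed D hD ht0 ht1 hn'0 hn'1 hε0 hgn hlam hβ hρ0 hρ1 ω
  refine (EX_mono (fun _ c => ?_) h3).trans (le_of_eq (EX_one _ (fun _ => ?_) _))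
  · cases c with
    | none => exact hW0
    | some b => cases b <;> simp only [wz] <;> linarith
  · rw [Fintype.sum_option, Fintype.sum_bool]
    simp only [wz]
    ring

end main

end Vale.Agent.P331.H688
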